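import Vale.Agent.L1Bass.Final

/-!
# P184: vanishing of the Hattori-Stallings coefficients at classes of positive translation length
-/

namespace Vale.Agent.Results.P184.PositiveTranslation

universe u v

/-- `e` is an idempotent `q × q` matrix over the Banach algebra `ℓ¹(G)`: its entries are absolutely
summable functions on `G` and `e * e = e` for the matrix product built from convolution. -/
structure IsL1Idempotent {G : Type u} [Group G] {q : ℕ} (e : Fin q → Fin q → G → ℂ) : Prop where
  summable : ∀ i j, Summable fun g => ‖e i j g‖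
  mul_self : ∀ i j g, ∑ k, ∑' h, e i k h * e k j (h⁻¹ * g) = e i j g

/-- The Hattori-Stallings coefficient `τ_C(e) = ∑_{g ∈ C} ∑_i e_ii(g)`. -/
noncomputable def tau {G : Type u} [Group G] {q : ℕ} (e : Fin q → Fin q → G → ℂ)
    (C : ConjClasses G) : ℂ :=
  ∑' g : C.carrier, ∑ i, e i i g

/-- The quadrilateral inequality (up to a constant). It holds with `K = 1` in every `CAT(0)` space,
hence also in every subset of a `CAT(0)` space. -/
def Quadrilateral (X : Type v) [PseudoMetricSpace X] : Prop :=
  ∃ K : ℝ, ∀ a b c d : X,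
    dist a c ^ 2 + dist b d ^ 2 - dist a d ^ 2 - dist b c ^ 2 ≤
      K * (dist a b ^ 2 + dist c d ^ 2)

/-- The Bruhat-Tits (CN) inequality: for complete metric spaces this is the definition of
`CAT(0)`. -/
def BruhatTits (X : Type v) [PseudoMetricSpace X] : Prop :=
  ∀ x y : X, ∃ m : X, ∀ z : X,
    dist z m ^ 2 ≤ (dist z x ^ 2 + dist z y ^ 2) / 2 - dist x y ^ 2 / 4

/-- The four-point condition, which characterises subsets of real trees. -/
def FourPoint (X : Type v) [PseudoMetricSpace X] : Prop :=
  ∀ a b c d : X, dist a c + dist b d ≤ max (dist a b + dist c d) (dist a d + dist b c)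

/-- `g` has positive translation length for some isometric action of the whole group `G` on a space
satisfying the quadrilateral inequality: `dist x (gⁿ x) ≥ κ n` for some point `x` and `κ > 0`. -/
def PosTranslation {G : Type u} [Group G] (g : G) : Prop :=
  ∃ (X : Type v) (_ : PseudoMetricSpace X) (_ : MulAction G X),
    IsIsometricSMul G X ∧ Quadrilateral X ∧
      ∃ (x : X) (κ : ℝ), 0 < κ ∧ ∀ n : ℕ, κ * n ≤ dist x (g ^ n • x)

theorem result :
    -- vanishing of the coefficient at every class of positive translation length, for every group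
    (∀ (G : Type u) [Group G] (g : G), PosTranslation.{u, v} g →
      ∀ (q : ℕ) (e : Fin q → Fin q → G → ℂ), IsL1Idempotent e → tau e (ConjClasses.mk g) = 0) ∧
    -- the full conclusion of Q1 when moreover `G` has finitely many classes of torsion elements
    (∀ (G : Type u) [Group G], (∀ g : G, ¬ IsOfFinOrder g → PosTranslation.{u, v} g) →
      {C : ConjClasses G | ∃ g, IsOfFinOrder g ∧ ConjClasses.mk g = C}.Finite →
      ∀ (q : ℕ) (e : Fin q → Fin q → G → ℂ), IsL1Idempotent e →
        ∃ F : Finset (ConjClasses G), (∀ C ∈ F, ∀ g, ConjClasses.mk g = C → IsOfFinOrder g) ∧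
          ∀ C, C ∉ F → tau e C = 0) ∧
    -- spaces to which this applies
    (∀ (X : Type v) [PseudoMetricSpace X], BruhatTits X → Quadrilateral X) ∧
    (∀ (X : Type v) [PseudoMetricSpace X], FourPoint X → Quadrilateral X) ∧
    -- elements with a power of infinite order in the abelianization of a finite index subgroup
    (∀ (G : Type u) [Group G] (H : Subgroup G), H.FiniteIndex → ∀ (g : G) (m : ℕ), 0 < m →
      ∀ hm : g ^ m ∈ H, ¬ IsOfFinOrder (Abelianization.of (⟨g ^ m, hm⟩ : H)) →
        PosTranslation.{u, u} g) := by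
  have main : ∀ (G : Type u) [Group G] (g : G), PosTranslation.{u, v} g →
      ∀ (q : ℕ) (e : Fin q → Fin q → G → ℂ), IsL1Idempotent e →
        tau e (ConjClasses.mk g) = 0 := by
    intro G _ g hg q e he
    obtain ⟨X, _, _, hiso, ⟨K, hK⟩, x, κ, hκ, hx⟩ := hg
    refine L1Bass.vanish_of_action (K := K) (X := X) ?_ g x hκ hx he.summable he.mul_self
    intro a b c d
    have h := hK a b d c
    rw [dist_comm d c] at h
    unfold L1Bass.br
    linarith
  refine ⟨main, ?_, ?_, ?_, ?_⟩
  · intro G _ hinf hfin q e he
    refine ⟨hfin.toFinset, ?_, ?_⟩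
    · intro C hC g hg
      obtain ⟨g', hg', hC'⟩ := hfin.mem_toFinset.1 hC
      rw [← hC', ConjClasses.mk_eq_mk_iff_isConj, isConj_iff] at hg
      obtain ⟨c, hc⟩ := hg
      have h1 : g = c⁻¹ * g' * c := by rw [← hc]; group
      rw [h1]
      have h2 := (MulAut.conj c⁻¹).toMonoidHom.isOfFinOrder hg'
      simpa using h2
    · intro C hC
      obtain ⟨g, rfl⟩ := ConjClasses.exists_rep C
      refine main G g (hinf g fun hg => hC ?_) q e he
      exact hfin.mem_toFinset.2 ⟨g, hg, rfl⟩
  · intro X _ h
    refine ⟨1, fun a b c d => ?_⟩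
    have h1 := L1Bass.quad_of_bruhatTits h a b d c
    unfold L1Bass.br at h1
    rw [dist_comm d c] at h1
    linarith
  · intro X _ h
    refine ⟨1, fun a b c d => ?_⟩
    have h1 := L1Bass.quad_of_fourPoint h a b d c
    unfold L1Bass.br at h1
    rw [dist_comm d c] at h1
    linarith
  · intro G _ H hH g m hm hmem hord
    obtain ⟨f, hf⟩ := L1Bass.exists_real_hom _ hord
    have : Fintype (G ⧸ H) := H.fintypeQuotientOfFiniteIndex
    set φ : H →* Multiplicative ℝ := f.comp Abelianization.of with hφ
    let inst := L1Bass.indAction H φ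
    refine ⟨EuclideanSpace ℝ (G ⧸ H), inferInstance, inst, L1Bass.ind_isometric H φ, ?_, 0,
      |Multiplicative.toAdd (φ ⟨g ^ m, hmem⟩)| / m, ?_, ?_⟩
    · refine ⟨1, fun a b c d => ?_⟩
      simp only [dist_eq_norm]
      have e1 : a - c = (a - b) + (b - c) := by abel
      have e2 : b - d = (b - c) + (c - d) := by abel
      have e3 : a - d = (a - b) + ((b - c) + (c - d)) := by abel
      have n1 := norm_add_sq_real (a - b) (b - c)
      have n2 := norm_add_sq_real (b - c) (c - d)
      have n3 := norm_add_sq_real (a - b) ((b - c) + (c - d))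
      rw [inner_add_right] at n3
      have n4 := norm_add_sq_real (a - b) (c - d)
      have n5 := sq_nonneg ‖(a - b) + (c - d)‖
      rw [e1, e2, e3, n1, n3, n2]
      nlinarith
    · exact div_pos (abs_pos.2 hf) (by exact_mod_cast hm)
    · have := L1Bass.ind_isometric H φ
      exact L1Bass.growth_of_subseq g (0 : EuclideanSpace ℝ (G ⧸ H)) hm
        (fun n => L1Bass.ind_growth H φ g hmem n)

end Vale.Agent.Results.P184.PositiveTranslation
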